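import Vale.Agent.P315.H679.AccDefs

/-! VALUE over `Sys` (helper679's accounting interface): the area under the root curve is the
expected static index from which a leaf is read, minus the total gain. -/

set_option autoImplicit false

open Finset

namespace Vale.Agent.P315.Q976

open Vale.Agent.P315.Acc

variable {X : Type} [Fintype X] [Nonempty X]

lemma sum_ind_lt (T r : ℕ) : ∑ b ∈ range T, ind (b < r) ≤ (r : ℝ) := by
  calc ∑ b ∈ range T, ind (b < r) = ((range T).filter (fun b => b < r)).card := by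
        rw [← Finset.sum_filter_add_sum_filter_not (range T) (fun b => b < r)]
        rw [Finset.sum_congr rfl (fun b hb => ind_true (Finset.mem_filter.1 hb).2),
          Finset.sum_congr rfl (fun b hb => ind_false (Finset.mem_filter.1 hb).2)]
        simp
    _ ≤ (r : ℝ) := by
        have : ((range T).filter (fun b => b < r)) ⊆ range r := fun b hb =>
          Finset.mem_range.2 (Finset.mem_filter.1 hb).2
        have h := Finset.card_le_card this
        rw [Finset.card_range] at h
        exact_mod_cast h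

/-- The sum of the root curve. -/
theorem sum_root (S : Sys X) {R : X → ℕ} {eps : ℝ}
    (hleaf : ∀ x b, S.e 0 x b ≤ ind (b < R x) + eps) :
    ∑ b ∈ range S.T, S.E (fun x => S.e S.n x b) ≤
      S.E (fun x => (R x : ℝ)) + S.T * eps - S.Gam := by
  have h1 : ∑ b ∈ range S.T, S.E (fun x => S.e 0 x b) ≤
      S.E (fun x => (R x : ℝ)) + S.T * eps := by
    unfold Sys.E
    rw [← EE_sum]
    have h2 : EE S.w (fun x => (R x : ℝ)) + S.T * eps =
        EE S.w (fun x => (R x : ℝ) + S.T * eps) := by
      rw [EE_add, EE_const S.hw]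
    rw [h2]
    refine EE_mono S.hw fun x => ?_
    calc ∑ b ∈ range S.T, S.e 0 x b ≤ ∑ b ∈ range S.T, (ind (b < R x) + eps) :=
          Finset.sum_le_sum fun b _ => hleaf x b
      _ = ∑ b ∈ range S.T, ind (b < R x) + S.T * eps := by
          rw [Finset.sum_add_distrib, Finset.sum_const, Finset.card_range, nsmul_eq_mul]
      _ ≤ (R x : ℝ) + S.T * eps := by
          have := sum_ind_lt S.T (R x)
          linarith
  have h2 : S.Gam = ∑ b ∈ range S.T, S.E (fun x => S.e 0 x b) -
      ∑ b ∈ range S.T, S.E (fun x => S.e S.n x b) := by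
    unfold Sys.Gam
    rw [Finset.sum_sub_distrib]
  linarith

/-- **VALUE over `Sys`.** `R x` = static index from which the leaf `x` is read. If the root is one
node, the excess of the root at the static index `N` is at most
`(E R + T eps − Gam)/(N+1)`. -/
theorem value_acc (S : Sys X) {R : X → ℕ} {eps : ℝ}
    (hleaf : ∀ x b, S.e 0 x b ≤ ind (b < R x) + eps)
    {x0 : X} (hroot : ∀ x, S.q S.n x = S.q S.n x0) {N : ℕ} (hN : N < S.T) :
    ((N : ℝ) + 1) * S.e S.n x0 N ≤ S.E (fun x => (R x : ℝ)) + S.T * eps - S.Gam := by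
  refine le_trans ?_ (sum_root S hleaf)
  have h1 : ∀ b, S.E (fun x => S.e S.n x b) = S.e S.n x0 b := by
    intro b
    have : (fun x => S.e S.n x b) = fun _ : X => S.e S.n x0 b := by
      funext x
      rw [S.meas S.n x x0 (hroot x)]
    unfold Sys.E
    rw [this, EE_const S.hw]
  calc ((N : ℝ) + 1) * S.e S.n x0 N = ∑ b ∈ range (N + 1), S.e S.n x0 N := by
        rw [Finset.sum_const, Finset.card_range, nsmul_eq_mul]; push_cast; ring
    _ ≤ ∑ b ∈ range (N + 1), S.e S.n x0 b :=
        Finset.sum_le_sum fun b hb => S.anti S.n x0 (Nat.lt_succ_iff.1 (Finset.mem_range.1 hb))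
    _ ≤ ∑ b ∈ range S.T, S.e S.n x0 b :=
        Finset.sum_le_sum_of_subset_of_nonneg (Finset.range_mono (by omega))
          fun b _ _ => S.nonneg S.n x0 b
    _ = ∑ b ∈ range S.T, S.E (fun x => S.e S.n x b) :=
        Finset.sum_congr rfl fun b _ => (h1 b).symm

/-- The same with the bound on the total gain. -/
theorem value_acc' (S : Sys X) {R : X → ℕ} {eps : ℝ}
    (hleaf : ∀ x b, S.e 0 x b ≤ ind (b < R x) + eps)
    {x0 : X} (hroot : ∀ x, S.q S.n x = S.q S.n x0) {N : ℕ} (hN : N < S.T) {c : ℝ}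
    (hc : c ≤ S.Gam) :
    S.e S.n x0 N ≤ (S.E (fun x => (R x : ℝ)) + S.T * eps - c) / (N + 1) := by
  rw [le_div_iff₀ (by positivity)]
  have := value_acc S hleaf hroot hN
  linarith

/-! ### The cut version (one pass, helper337): everything from a static index `b0` on -/

lemma sum_Ico_ind_lt (a T r : ℕ) : ∑ b ∈ Finset.Ico a T, ind (b < r) ≤ ((r - a : ℕ) : ℝ) := by
  rw [Finset.sum_Ico_eq_sum_range]
  refine le_trans (le_of_eq ?_) (sum_ind_lt (T - a) (r - a))
  refine Finset.sum_congr rfl fun b _ => ind_congr ?_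
  omega

/-- The gains from `b0` on are at most the mean of `(R - b0)⁺`, minus the root curve. -/
theorem gam_from_le (S : Sys X) {R : X → ℕ} {eps : ℝ} (heps : 0 ≤ eps)
    (hleaf : ∀ x b, S.e 0 x b ≤ ind (b < R x) + eps) (b0 : ℕ) :
    ∑ b ∈ Finset.Ico b0 S.T, (S.E (fun x => S.e 0 x b) - S.E (fun x => S.e S.n x b)) ≤
      S.E (fun x => ((R x - b0 : ℕ) : ℝ)) + S.T * eps -
        ∑ b ∈ Finset.Ico b0 S.T, S.E (fun x => S.e S.n x b) := by
  rw [Finset.sum_sub_distrib]
  have h1 : ∑ b ∈ Finset.Ico b0 S.T, S.E (fun x => S.e 0 x b) ≤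
      S.E (fun x => ((R x - b0 : ℕ) : ℝ)) + S.T * eps := by
    unfold Sys.E
    rw [← EE_sum]
    have h2 : EE S.w (fun x => ((R x - b0 : ℕ) : ℝ)) + S.T * eps =
        EE S.w (fun x => ((R x - b0 : ℕ) : ℝ) + S.T * eps) := by
      rw [EE_add, EE_const S.hw]
    rw [h2]
    refine EE_mono S.hw fun x => ?_
    calc ∑ b ∈ Finset.Ico b0 S.T, S.e 0 x b ≤
          ∑ b ∈ Finset.Ico b0 S.T, (ind (b < R x) + eps) :=
          Finset.sum_le_sum fun b _ => hleaf x b
      _ = ∑ b ∈ Finset.Ico b0 S.T, ind (b < R x) + (S.T - b0 : ℕ) * eps := by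
          rw [Finset.sum_add_distrib, Finset.sum_const, Nat.card_Ico, nsmul_eq_mul]
      _ ≤ ((R x - b0 : ℕ) : ℝ) + S.T * eps := by
          have h3 := sum_Ico_ind_lt b0 S.T (R x)
          have h4 : ((S.T - b0 : ℕ) : ℝ) * eps ≤ S.T * eps :=
            mul_le_mul_of_nonneg_right (by exact_mod_cast Nat.sub_le _ _) heps
          linarith
  linarith

/-- The root term may be dropped. -/
theorem gam_from_le' (S : Sys X) {R : X → ℕ} {eps : ℝ} (heps : 0 ≤ eps)
    (hleaf : ∀ x b, S.e 0 x b ≤ ind (b < R x) + eps) (b0 : ℕ) :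
    ∑ b ∈ Finset.Ico b0 S.T, (S.E (fun x => S.e 0 x b) - S.E (fun x => S.e S.n x b)) ≤
      S.E (fun x => ((R x - b0 : ℕ) : ℝ)) + S.T * eps := by
  have h1 := gam_from_le S heps hleaf b0
  have h2 : 0 ≤ ∑ b ∈ Finset.Ico b0 S.T, S.E (fun x => S.e S.n x b) :=
    Finset.sum_nonneg fun b _ => EE_nonneg S.hw fun x => S.nonneg S.n x b
  linarith

/-- One level: the mean excess decreases with the level. -/
theorem E_step (S : Sys X) {j : ℕ} (hj : j < S.n) (b : ℕ) :
    S.E (fun x => S.e (j + 1) x b) ≤ S.E (fun x => S.e j x b) := by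
  unfold Sys.E
  rw [← EE_avg (q := S.q) S.hw (j + 1) (fun x => S.e j x b)]
  exact EE_mono S.hw fun x => S.gain j x b hj

/-- **MASS at the cut**: every level has mean excess at least that of the root. -/
theorem E_level (S : Sys X) {i j : ℕ} (hij : i ≤ j) (hj : j ≤ S.n) (b : ℕ) :
    S.E (fun x => S.e j x b) ≤ S.E (fun x => S.e i x b) := by
  induction j, hij using Nat.le_induction with
  | base => exact le_refl _
  | succ j _ ih => exact (E_step S (by omega) b).trans (ih (by omega))

/-- The total mass of the levels `j < n` after the cut is at least `n` times the root excess. -/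
theorem mass_cut (S : Sys X) (b : ℕ) :
    S.n * S.E (fun x => S.e S.n x b) ≤ ∑ j ∈ range S.n, S.E (fun x => S.e j x b) := by
  have h := Finset.sum_le_sum fun j (hj : j ∈ range S.n) =>
    E_level S (i := j) (Finset.mem_range.1 hj).le (le_refl _) b
  rwa [Finset.sum_const, Finset.card_range, nsmul_eq_mul] at h

/-- The root excess as a number. -/
theorem E_root (S : Sys X) {x0 : X} (hroot : ∀ x, S.q S.n x = S.q S.n x0) (b : ℕ) :
    S.E (fun x => S.e S.n x b) = S.e S.n x0 b := by
  have : (fun x => S.e S.n x b) = fun _ : X => S.e S.n x0 b := by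
    funext x
    rw [S.meas S.n x x0 (hroot x)]
  unfold Sys.E
  rw [this, EE_const S.hw]

/-- Level form of the gains: `Gam` from `b0` on is the sum over the levels of the one-level
gains. -/
theorem gam_levels (S : Sys X) (b : ℕ) :
    S.E (fun x => S.e 0 x b) - S.E (fun x => S.e S.n x b) =
      ∑ j ∈ range S.n, S.E (fun x => S.g j x b) := by
  have h : ∀ j ∈ range S.n, S.E (fun x => S.g j x b) =
      S.E (fun x => S.e j x b) - S.E (fun x => S.e (j + 1) x b) := by
    intro j _
    unfold Sys.g Sys.E Sys.av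
    rw [EE_sub, EE_avg S.hw (j + 1) (fun y => S.e j y b)]
  rw [Finset.sum_congr rfl h, Finset.sum_range_sub' (fun j => S.E (fun x => S.e j x b))]

end Vale.Agent.P315.Q976
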