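import Mathlib

/-! Area bookkeeping for the query theorem (helper476, note 14235): levels `0, …, n`, the slab
`t` of level `j+1` has the `M` children `M t + i` of level `j`, the child slab `(j, s)` has the
jitter `ξ j s`. `u j t b` = (normalised) number of cells read by all boxes of the slab `(j,t)`
at own index `b`. -/

set_option autoImplicit false

namespace Vale.Agent.P315.Q976

open Finset

lemma sum_range_mul' {α : Type*} [AddCommMonoid α] (M T : ℕ) (f : ℕ → α) :
    ∑ s ∈ range (M * T), f s = ∑ t ∈ range T, ∑ i ∈ range M, f (M * t + i) := by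
  induction T with
  | zero => simp
  | succ T ih =>
    rw [Nat.mul_succ, Finset.sum_range_add, ih, Finset.sum_range_succ]

/-- Sum of the jitters on the lineage of the leaf row `r` below the slab `(n, ·)`. -/
def lineage (M : ℕ) (ξ : ℕ → ℕ → ℕ) (n r : ℕ) : ℕ := ∑ j ∈ range n, ξ j (r / M ^ j)

lemma lineage_succ (M : ℕ) (ξ : ℕ → ℕ → ℕ) (n r : ℕ) :
    lineage M ξ (n + 1) r = lineage M ξ n r + ξ n (r / M ^ n) := by
  unfold lineage
  rw [Finset.sum_range_succ]

/-- **Area recursion, pathwise.** -/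
theorem area_le {M : ℕ} (hM : 0 < M) {ρ lam : ℝ} (hρ : 0 ≤ ρ) {ξ : ℕ → ℕ → ℕ}
    {u : ℕ → ℕ → ℤ → ℝ}
    (h0 : ∀ t b, u 0 t b ≤ Real.exp (lam * b))
    (hs : ∀ j t b, u (j + 1) t b ≤ ∑ i ∈ range M,
      (u j (M * t + i) (b - ξ j (M * t + i)) + ρ * u j (M * t + i) (b - ξ j (M * t + i) + 1)))
    (n t : ℕ) (b : ℤ) :
    u n t b ≤ Real.exp (lam * b) * (1 + ρ * Real.exp lam) ^ n *
      ∑ r ∈ range (M ^ n), Real.exp (- lam * (lineage M ξ n (M ^ n * t + r) : ℝ)) := by
  induction n generalizing t b with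
  | zero => simpa [lineage] using h0 t b
  | succ n ih =>
    refine (hs n t b).trans ?_
    have hpow : M ^ (n + 1) = M ^ n * M := pow_succ M n
    rw [hpow, sum_range_mul' (M ^ n) M, Finset.mul_sum]
    refine Finset.sum_le_sum fun i _ => ?_
    set s := M * t + i with hsdef
    have e1 := ih s (b - ξ n s)
    have e2 := ih s (b - ξ n s + 1)
    have hE : Real.exp (lam * ((b - ξ n s : ℤ) : ℝ)) =
        Real.exp (lam * b) * Real.exp (- lam * (ξ n s : ℝ)) := by
      rw [← Real.exp_add]; congr 1; push_cast; ring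
    have hE2 : Real.exp (lam * ((b - ξ n s + 1 : ℤ) : ℝ)) =
        Real.exp (lam * b) * Real.exp (- lam * (ξ n s : ℝ)) * Real.exp lam := by
      rw [← Real.exp_add, ← Real.exp_add]; congr 1; push_cast; ring
    rw [hE] at e1
    rw [hE2] at e2
    set W := ∑ r ∈ range (M ^ n), Real.exp (- lam * (lineage M ξ n (M ^ n * s + r) : ℝ)) with hW
    have hlin : ∀ r ∈ range (M ^ n),
        Real.exp (- lam * (lineage M ξ (n + 1) (M ^ n * M * t + (M ^ n * i + r)) : ℝ)) =
        Real.exp (- lam * (ξ n s : ℝ)) *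
          Real.exp (- lam * (lineage M ξ n (M ^ n * s + r) : ℝ)) := by
      intro r hr
      have hr' := Finset.mem_range.1 hr
      have hrew : M ^ n * M * t + (M ^ n * i + r) = M ^ n * s + r := by
        rw [hsdef]; ring
      rw [hrew, lineage_succ]
      have hdiv : (M ^ n * s + r) / M ^ n = s := by
        rw [Nat.mul_add_div (pow_pos hM n), Nat.div_eq_of_lt hr', add_zero]
      rw [hdiv, ← Real.exp_add]
      congr 1
      push_cast
      ring
    rw [Finset.sum_congr rfl hlin, ← Finset.mul_sum]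
    have hcalc : Real.exp (lam * b) * Real.exp (- lam * (ξ n s : ℝ))
          * (1 + ρ * Real.exp lam) ^ n * W
        + ρ * (Real.exp (lam * b) * Real.exp (- lam * (ξ n s : ℝ)) * Real.exp lam
          * (1 + ρ * Real.exp lam) ^ n * W)
        = Real.exp (lam * b) * (1 + ρ * Real.exp lam) ^ (n + 1)
          * (Real.exp (- lam * (ξ n s : ℝ)) * W) := by
      rw [pow_succ]; ring
    rw [← hcalc]
    exact add_le_add e1 (mul_le_mul_of_nonneg_left e2 hρ)

/-- Expectation of a product over a set of independent uniform coordinates, as a finite sum. -/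
theorem sum_prod_coord {S : Type*} [Fintype S] [DecidableEq S] {X : Type*} [Fintype X]
    (T : Finset S) (g : S → X → ℝ) :
    ∑ f : S → X, ∏ s ∈ T, g s (f s) =
      (∏ s ∈ T, ∑ x, g s x) * (Fintype.card X : ℝ) ^ (Fintype.card S - T.card) := by
  classical
  have h1 : ∀ f : S → X, ∏ s ∈ T, g s (f s) = ∏ s, (if s ∈ T then g s (f s) else 1) := by
    intro f
    rw [Finset.prod_ite_mem, Finset.univ_inter]
  rw [Finset.sum_congr rfl fun f _ => h1 f]
  have h2 := Finset.prod_univ_sum (fun _ : S => (Finset.univ : Finset X))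
    (fun s x => if s ∈ T then g s x else 1)
  rw [Fintype.piFinset_univ] at h2
  rw [← h2]
  have h3 : ∀ s : S, (∑ x : X, (if s ∈ T then g s x else 1)) =
      if s ∈ T then ∑ x, g s x else (Fintype.card X : ℝ) := by
    intro s
    split_ifs with h
    · rfl
    · simp
  rw [Finset.prod_congr rfl fun s _ => h3 s, Finset.prod_ite, Finset.prod_const]
  congr 1
  · exact Finset.prod_congr (by ext s; simp) fun _ _ => rfl
  · congr 1
    rw [Finset.filter_not, Finset.card_sdiff_of_subset (Finset.filter_subset _ _)]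
    simp

/-- Exponential moment of the uniform distribution on `{0, …, J}`. -/
theorem exp_moment (J : ℕ) (lam : ℝ) :
    (∑ x : Fin (J + 1), Real.exp (- lam * (x : ℕ))) / (J + 1) ≤
      Real.exp (- lam * J / 2 + lam ^ 2 * J ^ 2 / 8) := by
  have hpos : (0 : ℝ) < J + 1 := by positivity
  rw [div_le_iff₀ hpos]
  -- symmetrise
  have hrev : ∑ x : Fin (J + 1), Real.exp (- lam * (x : ℕ)) =
      ∑ x : Fin (J + 1), Real.exp (- lam * (J - (x : ℕ) : ℝ)) := by
    rw [← Equiv.sum_comp Fin.revPerm]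
    refine Finset.sum_congr rfl fun x _ => ?_
    congr 2
    have := x.2
    have hx : (x : ℕ) ≤ J := by omega
    simp only [Fin.revPerm_apply, Fin.val_rev]
    rw [show J + 1 - ((x : ℕ) + 1) = J - x by omega, Nat.cast_sub hx]
  have hterm : ∀ x : Fin (J + 1),
      (Real.exp (- lam * (x : ℕ)) + Real.exp (- lam * (J - (x : ℕ) : ℝ))) / 2 ≤
        Real.exp (- lam * J / 2 + lam ^ 2 * J ^ 2 / 8) := by
    intro x
    have hx0 : (0 : ℝ) ≤ (x : ℕ) := Nat.cast_nonneg _
    have hxJ : ((x : ℕ) : ℝ) ≤ J := by exact_mod_cast (Nat.lt_succ_iff.1 x.2)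
    have e1 : (Real.exp (- lam * (x : ℕ)) + Real.exp (- lam * (J - (x : ℕ) : ℝ))) / 2 =
        Real.exp (- lam * J / 2) * Real.cosh (lam * (J / 2 - (x : ℕ))) := by
      rw [Real.cosh_eq, mul_div_assoc', mul_add, ← Real.exp_add, ← Real.exp_add]
      congr 3
      · ring_nf
      · ring_nf
    have e2 : Real.cosh (lam * (J / 2 - (x : ℕ))) ≤ Real.exp ((lam * (J / 2 - (x : ℕ))) ^ 2 / 2) :=
      Real.cosh_le_exp_half_sq _
    have e3 : (lam * (J / 2 - (x : ℕ) : ℝ)) ^ 2 / 2 ≤ lam ^ 2 * J ^ 2 / 8 := by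
      have : ((J : ℝ) / 2 - (x : ℕ)) ^ 2 ≤ (J : ℝ) ^ 2 / 4 := by nlinarith
      rw [mul_pow]
      nlinarith [sq_nonneg lam]
    rw [e1, Real.exp_add]
    exact mul_le_mul_of_nonneg_left (e2.trans (Real.exp_le_exp.2 e3)) (Real.exp_pos _).le
  have hsum := Finset.sum_le_sum fun (x : Fin (J + 1)) (_ : x ∈ Finset.univ) => hterm x
  rw [← Finset.sum_div, Finset.sum_add_distrib, ← hrev, Finset.sum_const, Finset.card_univ,
    Fintype.card_fin, nsmul_eq_mul] at hsum
  push_cast at hsum
  linarith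

end Vale.Agent.P315.Q976
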