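import Mathlib

/-! Row-wise entropic mirror descent on a convex set of row distributions (the regret lemma of
helper476, note 14235), in a robust form: approximate minimiser, approximate update, the update
`x (1 + l w)` (no exponentials), natural logarithms. -/

set_option autoImplicit false

namespace Vale.Agent.P315.Q976

open Finset

section

variable {ι E : Type*}

/-- Weighted row sum of a linear form. -/
noncomputable def lin (I : Finset ι) (a : ι → ℝ) (A : ι → Finset E) (D x : ι → E → ℝ) : ℝ :=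
  ∑ i ∈ I, a i * ∑ e ∈ A i, D i e * x i e

/-- Weighted cross entropy of the comparison point `P` and the state `y`. -/
noncomputable def ce (I : Finset ι) (a : ι → ℝ) (A : ι → Finset E) (P y : ι → E → ℝ) : ℝ :=
  ∑ i ∈ I, a i * ∑ e ∈ A i, - (P i e * Real.log (y i e))

lemma lin_sub (I : Finset ι) (a : ι → ℝ) (A : ι → Finset E) (D D' x : ι → E → ℝ) :
    lin I a A (fun i e => D i e - D' i e) x = lin I a A D x - lin I a A D' x := by
  unfold lin
  rw [← Finset.sum_sub_distrib]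
  refine Finset.sum_congr rfl fun i _ => ?_
  rw [← mul_sub, ← Finset.sum_sub_distrib]
  congr 1
  exact Finset.sum_congr rfl fun e _ => by ring

lemma lin_mono {I : Finset ι} {a : ι → ℝ} {A : ι → Finset E} {D D' x : ι → E → ℝ}
    (ha : ∀ i ∈ I, 0 ≤ a i) (hx : ∀ i ∈ I, ∀ e ∈ A i, 0 ≤ x i e)
    (h : ∀ i ∈ I, ∀ e ∈ A i, D i e ≤ D' i e) : lin I a A D x ≤ lin I a A D' x := by
  unfold lin
  refine Finset.sum_le_sum fun i hi => mul_le_mul_of_nonneg_left ?_ (ha i hi)
  exact Finset.sum_le_sum fun e he => mul_le_mul_of_nonneg_right (h i hi e he) (hx i hi e he)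

lemma ce_nonneg {I : Finset ι} {a : ι → ℝ} {A : ι → Finset E} {P y : ι → E → ℝ}
    (ha : ∀ i ∈ I, 0 ≤ a i) (hP : ∀ i ∈ I, ∀ e ∈ A i, 0 ≤ P i e)
    (hy : ∀ i ∈ I, ∀ e ∈ A i, 0 ≤ y i e) (hy1 : ∀ i ∈ I, ∀ e ∈ A i, y i e ≤ 1) :
    0 ≤ ce I a A P y := by
  unfold ce
  refine Finset.sum_nonneg fun i hi => mul_nonneg (ha i hi) ?_
  refine Finset.sum_nonneg fun e he => ?_
  have := Real.log_nonpos (hy i hi e he) (hy1 i hi e he)
  have h2 := mul_nonneg (hP i hi e he) (neg_nonneg.2 this)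
  linarith [neg_mul_eq_mul_neg (P i e) (Real.log (y i e))]

lemma log_one_add_ge {t : ℝ} (h0 : 0 ≤ t) (h1 : t ≤ 1) : 2 / 3 * t ≤ Real.log (1 + t) := by
  -- concavity: log (1 + t) ≥ t log 2
  have hc := (strictConcaveOn_log_Ioi.concaveOn).2 (Set.mem_Ioi.2 (zero_lt_one (α := ℝ)))
    (Set.mem_Ioi.2 (zero_lt_two (α := ℝ))) (sub_nonneg.2 h1) h0 (by ring)
  simp only [smul_eq_mul, Real.log_one, mul_zero, zero_add, mul_one] at hc
  have h2 : (0.6931471803 : ℝ) < Real.log 2 := Real.log_two_gt_d9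
  have h3 : (1 - t) + t * 2 = 1 + t := by ring
  rw [h3] at hc
  nlinarith

/-- Gibbs' inequality for a subprobability `y`. -/
lemma gibbs {A : Finset E} {x y : E → ℝ} (hx : ∀ e ∈ A, 0 < x e) (hy : ∀ e ∈ A, 0 < y e)
    (hx1 : ∑ e ∈ A, x e = 1) (hy1 : ∑ e ∈ A, y e ≤ 1) :
    0 ≤ ∑ e ∈ A, x e * Real.log (x e / y e) := by
  have h : ∀ e ∈ A, x e - y e ≤ x e * Real.log (x e / y e) := by
    intro e he
    have h1 := Real.log_le_sub_one_of_pos (div_pos (hy e he) (hx e he))
    have h2 : Real.log (x e / y e) = - Real.log (y e / x e) := by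
      rw [← Real.log_inv, inv_div]
    rw [h2]
    have h3 := mul_le_mul_of_nonneg_left h1 (hx e he).le
    have h4 : x e * (y e / x e - 1) = y e - x e := by
      field_simp [(hx e he).ne']
    rw [h4] at h3
    linarith
  have := Finset.sum_le_sum h
  rw [Finset.sum_sub_distrib, hx1] at this
  linarith

/-- **One round.** `x` is an approximate minimiser of `KL(x||y) + l V(x)` (first-order condition
with error `η`, tested at `P`), `D' ≤ D` the costs of the next round, `w ≤ D - D'` the clipped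
decrease, `y'` at least `(1-ε)` times the normalised `x (1 + l w)`. -/
theorem round {I : Finset ι} {a : ι → ℝ} {A : ι → Finset E} {P x y y' D D' w : ι → E → ℝ}
    {l η ε : ℝ} (hl : 0 < l) (hε : ε < 1) (ha : ∀ i ∈ I, 0 ≤ a i)
    (hP : ∀ i ∈ I, ∀ e ∈ A i, 0 ≤ P i e) (hP1 : ∀ i ∈ I, ∑ e ∈ A i, P i e = 1)
    (hx : ∀ i ∈ I, ∀ e ∈ A i, 0 < x i e) (hx1 : ∀ i ∈ I, ∑ e ∈ A i, x i e = 1)
    (hy : ∀ i ∈ I, ∀ e ∈ A i, 0 < y i e) (hy1 : ∀ i ∈ I, ∑ e ∈ A i, y i e ≤ 1)
    (hw0 : ∀ i ∈ I, ∀ e ∈ A i, 0 ≤ w i e) (hwl : ∀ i ∈ I, ∀ e ∈ A i, l * w i e ≤ 1)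
    (hwD : ∀ i ∈ I, ∀ e ∈ A i, w i e ≤ D i e - D' i e)
    (hy' : ∀ i ∈ I, ∀ e ∈ A i,
      (1 - ε) * (x i e * (1 + l * w i e) / (1 + l * ∑ f ∈ A i, x i f * w i f)) ≤ y' i e)
    (hfo : - η ≤ ∑ i ∈ I, a i * ∑ e ∈ A i,
      (Real.log (x i e / y i e) + l * D i e) * (P i e - x i e)) :
    ce I a A P y' + 2 / 3 * l * lin I a A w P ≤
      ce I a A P y + l * (lin I a A D P - lin I a A D' x) + η
        + (∑ i ∈ I, a i) * (- Real.log (1 - ε)) := by
  have hε' : 0 < 1 - ε := by linarith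
  -- row-wise estimate of the new cross entropy
  have key : ∀ i ∈ I, (∑ e ∈ A i, - (P i e * Real.log (y' i e)))
      ≤ (∑ e ∈ A i, - (P i e * Real.log (y i e)))
        - (∑ e ∈ A i, P i e * Real.log (x i e / y i e))
        - 2 / 3 * l * (∑ e ∈ A i, w i e * P i e)
        + l * (∑ e ∈ A i, w i e * x i e) + (- Real.log (1 - ε)) := by
    intro i hi
    set S := ∑ f ∈ A i, x i f * w i f with hS
    have hS0 : 0 ≤ S := Finset.sum_nonneg fun f hf => mul_nonneg (hx i hi f hf).le (hw0 i hi f hf)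
    have hZ : 0 < 1 + l * S := by nlinarith [mul_nonneg hl.le hS0]
    have hlogZ : Real.log (1 + l * S) ≤ l * S := by
      have := Real.log_le_sub_one_of_pos hZ
      linarith
    have hterm : ∀ e ∈ A i, - (P i e * Real.log (y' i e)) ≤
        - (P i e * Real.log (y i e)) - P i e * Real.log (x i e / y i e)
          - 2 / 3 * l * (w i e * P i e) + P i e * (l * S) + P i e * (- Real.log (1 - ε)) := by
      intro e he
      have hxe := hx i hi e he
      have hye := hy i hi e he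
      have hwe := hw0 i hi e he
      have h1w : 0 < 1 + l * w i e := by nlinarith [mul_nonneg hl.le hwe]
      have hlow : 0 < (1 - ε) * (x i e * (1 + l * w i e) / (1 + l * S)) := by positivity
      have hlog : Real.log ((1 - ε) * (x i e * (1 + l * w i e) / (1 + l * S))) ≤
          Real.log (y' i e) := Real.log_le_log hlow (hy' i hi e he)
      rw [Real.log_mul hε'.ne' (by positivity), Real.log_div (by positivity) hZ.ne',
        Real.log_mul hxe.ne' h1w.ne'] at hlog
      have hge := log_one_add_ge (mul_nonneg hl.le hwe) (hwl i hi e he)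
      have hxy : Real.log (x i e / y i e) = Real.log (x i e) - Real.log (y i e) :=
        Real.log_div hxe.ne' hye.ne'
      have hlow2 : Real.log (1 - ε) + (Real.log (x i e) + 2 / 3 * (l * w i e)) - l * S
          ≤ Real.log (y' i e) := by linarith
      have hm := mul_le_mul_of_nonneg_left hlow2 (hP i hi e he)
      rw [hxy]
      nlinarith [hm]
    have hsum := Finset.sum_le_sum hterm
    have e1 : ∑ e ∈ A i, (- (P i e * Real.log (y i e)) - P i e * Real.log (x i e / y i e)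
          - 2 / 3 * l * (w i e * P i e) + P i e * (l * S) + P i e * (- Real.log (1 - ε)))
        = (∑ e ∈ A i, - (P i e * Real.log (y i e)))
          - (∑ e ∈ A i, P i e * Real.log (x i e / y i e))
          - 2 / 3 * l * (∑ e ∈ A i, w i e * P i e)
          + l * S + (- Real.log (1 - ε)) := by
      rw [Finset.sum_add_distrib, Finset.sum_add_distrib, Finset.sum_sub_distrib,
        Finset.sum_sub_distrib, ← Finset.mul_sum, ← Finset.sum_mul, ← Finset.sum_mul,
        hP1 i hi, one_mul, one_mul]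
    rw [e1] at hsum
    have e2 : S = ∑ e ∈ A i, w i e * x i e := by
      rw [hS]; exact Finset.sum_congr rfl fun e _ => mul_comm _ _
    rw [e2] at hsum
    exact hsum
  have hce : ce I a A P y' ≤ ce I a A P y
      - (∑ i ∈ I, a i * ∑ e ∈ A i, P i e * Real.log (x i e / y i e))
      - 2 / 3 * l * lin I a A w P + l * lin I a A w x + (∑ i ∈ I, a i) * (- Real.log (1 - ε)) := by
    unfold ce lin
    rw [Finset.sum_mul, Finset.mul_sum, Finset.mul_sum, ← Finset.sum_sub_distrib,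
      ← Finset.sum_sub_distrib, ← Finset.sum_add_distrib, ← Finset.sum_add_distrib]
    refine Finset.sum_le_sum fun i hi => ?_
    have := mul_le_mul_of_nonneg_left (key i hi) (ha i hi)
    linarith
  -- first-order condition
  have hsplit : ∑ i ∈ I, a i * ∑ e ∈ A i,
      (Real.log (x i e / y i e) + l * D i e) * (P i e - x i e)
      = (∑ i ∈ I, a i * ∑ e ∈ A i, P i e * Real.log (x i e / y i e))
        - (∑ i ∈ I, a i * ∑ e ∈ A i, x i e * Real.log (x i e / y i e))
        + l * lin I a A D P - l * lin I a A D x := by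
    have row : ∀ i ∈ I, a i * ∑ e ∈ A i,
        (Real.log (x i e / y i e) + l * D i e) * (P i e - x i e)
        = a i * (∑ e ∈ A i, P i e * Real.log (x i e / y i e))
          - a i * (∑ e ∈ A i, x i e * Real.log (x i e / y i e))
          + l * (a i * ∑ e ∈ A i, D i e * P i e) - l * (a i * ∑ e ∈ A i, D i e * x i e) := by
      intro i _
      have h1 : ∑ e ∈ A i, (Real.log (x i e / y i e) + l * D i e) * (P i e - x i e)
          = (∑ e ∈ A i, P i e * Real.log (x i e / y i e))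
            - (∑ e ∈ A i, x i e * Real.log (x i e / y i e))
            + l * (∑ e ∈ A i, D i e * P i e) - l * (∑ e ∈ A i, D i e * x i e) := by
        rw [Finset.mul_sum, Finset.mul_sum, ← Finset.sum_sub_distrib, ← Finset.sum_add_distrib,
          ← Finset.sum_sub_distrib]
        exact Finset.sum_congr rfl fun e _ => by ring
      rw [h1]; ring
    unfold lin
    rw [Finset.sum_congr rfl row, Finset.sum_sub_distrib, Finset.sum_add_distrib,
      Finset.sum_sub_distrib, ← Finset.mul_sum, ← Finset.mul_sum]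
  have hg : 0 ≤ ∑ i ∈ I, a i * ∑ e ∈ A i, x i e * Real.log (x i e / y i e) :=
    Finset.sum_nonneg fun i hi => mul_nonneg (ha i hi)
      (gibbs (hx i hi) (hy i hi) (hx1 i hi) (hy1 i hi))
  have hwx : lin I a A w x ≤ lin I a A D x - lin I a A D' x := by
    rw [← lin_sub]
    exact lin_mono ha (fun i hi e he => (hx i hi e he).le) hwD
  rw [hsplit] at hfo
  have hwx' := mul_le_mul_of_nonneg_left hwx hl.le
  nlinarith [hce, hfo, hg, hwx']

/-- **The regret lemma.** Sum over `K` rounds. -/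
theorem regret {I : Finset ι} {a : ι → ℝ} {A : ι → Finset E} {P : ι → E → ℝ}
    {x y D w : ℕ → ι → E → ℝ} {l η ε : ℝ} {K : ℕ} (hl : 0 < l) (hε : ε < 1)
    (ha : ∀ i ∈ I, 0 ≤ a i)
    (hP : ∀ i ∈ I, ∀ e ∈ A i, 0 ≤ P i e) (hP1 : ∀ i ∈ I, ∑ e ∈ A i, P i e = 1)
    (hx : ∀ k < K, ∀ i ∈ I, ∀ e ∈ A i, 0 < x k i e)
    (hx1 : ∀ k < K, ∀ i ∈ I, ∑ e ∈ A i, x k i e = 1)
    (hy : ∀ k ≤ K, ∀ i ∈ I, ∀ e ∈ A i, 0 < y k i e)
    (hy1 : ∀ k ≤ K, ∀ i ∈ I, ∑ e ∈ A i, y k i e ≤ 1)
    (hw0 : ∀ k < K, ∀ i ∈ I, ∀ e ∈ A i, 0 ≤ w k i e)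
    (hwl : ∀ k < K, ∀ i ∈ I, ∀ e ∈ A i, l * w k i e ≤ 1)
    (hwD : ∀ k < K, ∀ i ∈ I, ∀ e ∈ A i, w k i e ≤ D k i e - D (k + 1) i e)
    (hy' : ∀ k < K, ∀ i ∈ I, ∀ e ∈ A i,
      (1 - ε) * (x k i e * (1 + l * w k i e) / (1 + l * ∑ f ∈ A i, x k i f * w k i f))
        ≤ y (k + 1) i e)
    (hfo : ∀ k < K, - η ≤ ∑ i ∈ I, a i * ∑ e ∈ A i,
      (Real.log (x k i e / y k i e) + l * D k i e) * (P i e - x k i e)) :
    2 / 3 * l * ∑ k ∈ range K, lin I a A (w k) P ≤
      ce I a A P (y 0) + l * ∑ k ∈ range K, (lin I a A (D k) P - lin I a A (D (k + 1)) (x k))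
        + K * (η + (∑ i ∈ I, a i) * (- Real.log (1 - ε))) := by
  have step : ∀ m ≤ K, ce I a A P (y m) + 2 / 3 * l * ∑ k ∈ range m, lin I a A (w k) P ≤
      ce I a A P (y 0)
        + l * ∑ k ∈ range m, (lin I a A (D k) P - lin I a A (D (k + 1)) (x k))
        + m * (η + (∑ i ∈ I, a i) * (- Real.log (1 - ε))) := by
    intro m
    induction m with
    | zero => intro _; simp
    | succ m ih =>
      intro hm
      have hmK : m < K := hm
      have h1 := ih hmK.le
      have h2 := round (I := I) (a := a) (A := A) (P := P) (x := x m) (y := y m)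
        (y' := y (m + 1)) (D := D m) (D' := D (m + 1)) (w := w m) (l := l) (η := η) (ε := ε)
        hl hε ha hP hP1 (hx m hmK) (hx1 m hmK) (hy m hmK.le) (hy1 m hmK.le) (hw0 m hmK)
        (hwl m hmK) (hwD m hmK) (hy' m hmK) (hfo m hmK)
      rw [Finset.sum_range_succ, Finset.sum_range_succ, mul_add, mul_add]
      push_cast
      linarith
  have h := step K le_rfl
  have hle : ∀ i ∈ I, ∀ e ∈ A i, y K i e ≤ 1 := fun i hi e he =>
    (Finset.single_le_sum (fun f hf => (hy K le_rfl i hi f hf).le) he).trans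
      (hy1 K le_rfl i hi)
  have h0 := ce_nonneg (P := P) ha hP (fun i hi e he => (hy K le_rfl i hi e he).le) hle
  linarith

/-- The initial cross entropy of the uniform state is at most `log |E|`. -/
lemma ce_unif {I : Finset ι} {a : ι → ℝ} {A : ι → Finset E} {P y : ι → E → ℝ} {m : ℝ}
    (hm : 0 < m) (ha : ∀ i ∈ I, 0 ≤ a i)
    (hP : ∀ i ∈ I, ∀ e ∈ A i, 0 ≤ P i e) (hP1 : ∀ i ∈ I, ∑ e ∈ A i, P i e = 1)
    (hy : ∀ i ∈ I, ∀ e ∈ A i, m⁻¹ ≤ y i e) : ce I a A P y ≤ (∑ i ∈ I, a i) * Real.log m := by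
  unfold ce
  rw [Finset.sum_mul]
  refine Finset.sum_le_sum fun i hi => mul_le_mul_of_nonneg_left ?_ (ha i hi)
  have h : ∀ e ∈ A i, - (P i e * Real.log (y i e)) ≤ P i e * Real.log m := by
    intro e he
    have h1 := Real.log_le_log (inv_pos.2 hm) (hy i hi e he)
    rw [Real.log_inv] at h1
    have := mul_le_mul_of_nonneg_left h1 (hP i hi e he)
    linarith
  calc _ ≤ ∑ e ∈ A i, P i e * Real.log m := Finset.sum_le_sum h
    _ = Real.log m := by rw [← Finset.sum_mul, hP1 i hi, one_mul]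

end

end Vale.Agent.P315.Q976
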