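import Vale.Agent.P315.Q976.Area

/-! Value, mass and gain accounting for the query theorem (helper476, note 14235) in the STATIC
coordinate. Levels `0, …, n`; the slabs of level `j` are `t < M^(n-j)`, the slab `(j+1,t)` has the
children `(j, M t + i)`, `i < M`. `c j t β` is the certified cost per unit time, at static index
`β`, of the region of the comparison path in the slab `(j,t)`. Everything here is deterministic
(pathwise). -/

set_option autoImplicit false

namespace Vale.Agent.P315.Q976

open Finset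

/-- Average over the `M^(n-j)` slabs of level `j`. -/
noncomputable def av (M n j : ℕ) (f : ℕ → ℝ) : ℝ :=
  (∑ t ∈ range (M ^ (n - j)), f t) / (M : ℝ) ^ (n - j)

/-- Average over the children of the slab `(j+1,t)`. -/
noncomputable def ch (M : ℕ) (f : ℕ → ℝ) (t : ℕ) : ℝ := (∑ i ∈ range M, f (M * t + i)) / M

/-- The one-level gain of the slab `(j+1,t)` at `β`. -/
noncomputable def gain (M : ℕ) (c : ℕ → ℕ → ℕ → ℝ) (j t β : ℕ) : ℝ :=
  ch M (fun s => c j s β) t - c (j + 1) t β

lemma av_succ {M n j : ℕ} (hj : j < n) (f : ℕ → ℝ) :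
    av M n j f = av M n (j + 1) (ch M f) := by
  unfold av ch
  have h1 : n - j = (n - (j + 1)) + 1 := by omega
  rw [h1, pow_succ, mul_comm (M ^ (n - (j + 1))) M, sum_range_mul', pow_succ]
  rw [← Finset.sum_div, div_div, mul_comm]

lemma av_top {M n : ℕ} (f : ℕ → ℝ) : av M n n f = f 0 := by
  unfold av; simp

lemma av_mono {M n j : ℕ} {f g : ℕ → ℝ} (h : ∀ t < M ^ (n - j), f t ≤ g t) :
    av M n j f ≤ av M n j g := by
  unfold av
  refine div_le_div_of_nonneg_right (Finset.sum_le_sum fun t ht => h t (Finset.mem_range.1 ht)) ?_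
  positivity

lemma av_add {M n j : ℕ} (f g : ℕ → ℝ) :
    av M n j (fun t => f t + g t) = av M n j f + av M n j g := by
  unfold av; rw [Finset.sum_add_distrib, add_div]

lemma av_sub {M n j : ℕ} (f g : ℕ → ℝ) :
    av M n j (fun t => f t - g t) = av M n j f - av M n j g := by
  unfold av; rw [Finset.sum_sub_distrib, sub_div]

lemma av_mul {M n j : ℕ} (a : ℝ) (f : ℕ → ℝ) :
    av M n j (fun t => a * f t) = a * av M n j f := by
  unfold av; rw [← Finset.mul_sum, mul_div_assoc]

lemma av_sum {M n j : ℕ} {ι : Type*} (s : Finset ι) (f : ι → ℕ → ℝ) :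
    av M n j (fun t => ∑ i ∈ s, f i t) = ∑ i ∈ s, av M n j (f i) := by
  unfold av
  rw [Finset.sum_comm, Finset.sum_div]

lemma av_const {M n j : ℕ} (hM : 0 < M) (a : ℝ) : av M n j (fun _ => a) = a := by
  unfold av
  have : (M : ℝ) ^ (n - j) ≠ 0 := by positivity
  rw [Finset.sum_const, Finset.card_range, nsmul_eq_mul]
  push_cast
  field_simp

lemma av_nonneg {M n j : ℕ} {f : ℕ → ℝ} (h : ∀ t < M ^ (n - j), 0 ≤ f t) : 0 ≤ av M n j f := by
  unfold av
  exact div_nonneg (Finset.sum_nonneg fun t ht => h t (Finset.mem_range.1 ht)) (by positivity)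

lemma child_lt {M n j t i : ℕ} (hj : j < n) (ht : t < M ^ (n - (j + 1))) (hi : i < M) :
    M * t + i < M ^ (n - j) := by
  have h1 : n - j = (n - (j + 1)) + 1 := by omega
  rw [h1, pow_succ]
  calc M * t + i < M * t + M := by omega
    _ = M * (t + 1) := by ring
    _ ≤ M * M ^ (n - (j + 1)) := Nat.mul_le_mul_left _ ht
    _ = _ := by ring

/-- Telescoping of one level: the level averages of `c` decrease by the gains. -/
lemma av_level {M n j : ℕ} (hj : j < n) (c : ℕ → ℕ → ℕ → ℝ) (β : ℕ) :
    av M n j (fun t => c j t β) =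
      av M n (j + 1) (fun t => c (j + 1) t β) + av M n (j + 1) (fun t => gain M c j t β) := by
  rw [av_succ hj, ← av_add]
  congr 1
  funext t
  unfold gain
  ring

/-- Telescoping over all levels. -/
lemma av_telescope {M n : ℕ} (c : ℕ → ℕ → ℕ → ℝ) (β : ℕ) {m : ℕ} (hm : m ≤ n) :
    av M n 0 (fun t => c 0 t β) =
      av M n m (fun t => c m t β) +
        ∑ j ∈ range m, av M n (j + 1) (fun t => gain M c j t β) := by
  induction m with
  | zero => simp
  | succ m ih =>
    rw [ih (by omega), av_level (by omega : m < n), Finset.sum_range_succ]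
    ring

/-- The total gain up to the static index `B`. -/
noncomputable def Gam (M n : ℕ) (c : ℕ → ℕ → ℕ → ℝ) (B : ℕ) : ℝ :=
  ∑ j ∈ range n, av M n (j + 1) (fun t => ∑ β ∈ range B, gain M c j t β)

/-- **VALUE (static form).** -/
theorem value {M n : ℕ} {c : ℕ → ℕ → ℕ → ℝ} {D : ℕ → ℝ} {S : ℕ → ℕ}
    (hleaf : ∀ r < M ^ n, ∀ β, c 0 r β ≤ D r + if β < S r then 1 else 0)
    (hlow : ∀ β, av M n 0 D ≤ c n 0 β) (hanti : Antitone (c n 0)) {N B : ℕ} (hNB : N < B) :
    (N + 1) * (c n 0 N - av M n 0 D) ≤ av M n 0 (fun r => (S r : ℝ)) - Gam M n c B := by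
  have h1 : ∀ β, c n 0 β - av M n 0 D ≤
      av M n 0 (fun r => if β < S r then (1 : ℝ) else 0) -
        ∑ j ∈ range n, av M n (j + 1) (fun t => gain M c j t β) := by
    intro β
    have h := av_telescope (M := M) c β (le_refl n)
    rw [av_top] at h
    have h2 : av M n 0 (fun t => c 0 t β) ≤
        av M n 0 D + av M n 0 (fun r => if β < S r then (1 : ℝ) else 0) := by
      rw [← av_add]
      exact av_mono fun t ht => hleaf t (by simpa using ht) β
    linarith
  have h2 : ∑ β ∈ range B, (c n 0 β - av M n 0 D) ≤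
      av M n 0 (fun r => (S r : ℝ)) - Gam M n c B := by
    refine (Finset.sum_le_sum fun β _ => h1 β).trans ?_
    rw [Finset.sum_sub_distrib]
    have e1 : ∑ β ∈ range B, av M n 0 (fun r => if β < S r then (1 : ℝ) else 0) ≤
        av M n 0 (fun r => (S r : ℝ)) := by
      rw [← av_sum]
      refine av_mono fun t _ => ?_
      rw [Finset.sum_ite, Finset.sum_const_zero, add_zero, Finset.sum_const, nsmul_eq_mul, mul_one]
      have : ((range B).filter (fun β => β < S t)) ⊆ range (S t) := fun β hβ => by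
        simp only [Finset.mem_filter, Finset.mem_range] at hβ ⊢
        exact hβ.2
      have h := Finset.card_le_card this
      rw [Finset.card_range] at h
      exact_mod_cast h
    have e2 : ∑ β ∈ range B, ∑ j ∈ range n, av M n (j + 1) (fun t => gain M c j t β) =
        Gam M n c B := by
      unfold Gam
      rw [Finset.sum_comm]
      exact Finset.sum_congr rfl fun j _ => (av_sum _ _).symm
    rw [e2]
    linarith
  have h3 : ∑ β ∈ range (N + 1), (c n 0 β - av M n 0 D) ≤
      ∑ β ∈ range B, (c n 0 β - av M n 0 D) :=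
    Finset.sum_le_sum_of_subset_of_nonneg (Finset.range_mono (by omega))
      fun β _ _ => sub_nonneg.2 (hlow β)
  have h4 : ((N : ℝ) + 1) * (c n 0 N - av M n 0 D) ≤
      ∑ β ∈ range (N + 1), (c n 0 β - av M n 0 D) := by
    have : ∑ β ∈ range (N + 1), (c n 0 N - av M n 0 D) ≤
        ∑ β ∈ range (N + 1), (c n 0 β - av M n 0 D) :=
      Finset.sum_le_sum fun β hβ => by
        have := hanti (Nat.lt_succ_iff.1 (Finset.mem_range.1 hβ))
        linarith
    rw [Finset.sum_const, Finset.card_range, nsmul_eq_mul] at this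
    push_cast at this
    exact this
  linarith

/-- The drop of the curve at `β`. -/
noncomputable def nu (c : ℕ → ℕ → ℕ → ℝ) (j t β : ℕ) : ℝ := c j t β - c j t (β + 1)

lemma sum_nu (c : ℕ → ℕ → ℕ → ℝ) (j t B : ℕ) :
    ∑ β ∈ range B, nu c j t β = c j t 0 - c j t B := by
  unfold nu
  exact Finset.sum_range_sub' _ _

/-- `ν_U = avg ν_V − g_U[β] + g_U[β+1]`. -/
lemma nu_parent (M : ℕ) (c : ℕ → ℕ → ℕ → ℝ) (j t β : ℕ) :
    nu c (j + 1) t β =
      ch M (fun s => nu c j s β) t - gain M c j t β + gain M c j t (β + 1) := by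
  unfold nu gain ch
  rw [Finset.sum_sub_distrib, sub_div]
  ring

/-- **MASS.** Every level has total mass at least `c_root[0] − avg_leaf c[B]`. -/
theorem mass {M n : ℕ} {c : ℕ → ℕ → ℕ → ℝ}
    (hgain : ∀ j < n, ∀ t < M ^ (n - (j + 1)), ∀ β, 0 ≤ gain M c j t β) {m : ℕ} (hm : m ≤ n)
    (B : ℕ) :
    c n 0 0 - av M n 0 (fun t => c 0 t B) ≤
      av M n m (fun t => ∑ β ∈ range B, nu c m t β) := by
  have h1 : av M n m (fun t => ∑ β ∈ range B, nu c m t β) =
      av M n m (fun t => c m t 0) - av M n m (fun t => c m t B) := by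
    rw [← av_sub]
    exact congrArg _ (funext fun t => sum_nu c m t B)
  have h2 := av_telescope (M := M) (n := n) c 0 hm
  have h3 := av_telescope (M := M) (n := n) c 0 (le_refl n)
  have h4 := av_telescope (M := M) (n := n) c B hm
  have h5 : 0 ≤ ∑ j ∈ range m, av M n (j + 1) (fun t => gain M c j t B) :=
    Finset.sum_nonneg fun j hj => av_nonneg fun t ht =>
      hgain j (by have := Finset.mem_range.1 hj; omega) t ht B
  have h6 : ∑ j ∈ range m, av M n (j + 1) (fun t => gain M c j t 0) ≤
      ∑ j ∈ range n, av M n (j + 1) (fun t => gain M c j t 0) :=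
    Finset.sum_le_sum_of_subset_of_nonneg (Finset.range_mono hm) fun j hj _ =>
      av_nonneg fun t ht => hgain j (Finset.mem_range.1 hj) t ht 0
  rw [av_top] at h3
  rw [h1]
  linarith

/-- An atom is paid by the gain at the next index or by an atom of the average of the children. -/
lemma atom_split {ν A g g' cap : ℝ} (h : ν = A - g + g') (hg : 0 ≤ g) (hg' : 0 ≤ g')
    (hA : 0 ≤ A) (hcap : 0 ≤ cap) :
    ν ≤ min ν cap + (2 * g' + 2 * (if cap / 2 ≤ A then A else 0)) := by
  rcases le_or_gt ν cap with h1 | h1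
  · rw [min_eq_left h1]
    split_ifs <;> linarith
  · rw [min_eq_right h1.le]
    rcases le_or_gt (ν / 2) g' with h2 | h2
    · split_ifs <;> linarith
    · rw [if_pos (by linarith)]
      linarith

/-- **One-scale accounting, pathwise.** `star` is the inequality (*) of the machine of every region
with error `err`, `at` bounds the atoms of the averages of the children. -/
theorem account {M n : ℕ} (hM : 0 < M) {c : ℕ → ℕ → ℕ → ℝ} {cap : ℝ} (hcap : 0 ≤ cap) {B : ℕ}
    (hgain : ∀ j < n, ∀ t < M ^ (n - (j + 1)), ∀ β, 0 ≤ gain M c j t β)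
    (hnu : ∀ j < n, ∀ t < M ^ (n - j), ∀ β, 0 ≤ nu c j t β)
    (hleaf : ∀ t < M ^ n, c 0 t 0 - c 0 t B ≤ 1)
    {err atm : ℕ → ℕ → ℝ}
    (hstar : ∀ j < n, ∀ t < M ^ (n - (j + 1)),
      ∑ β ∈ range B, ch M (fun s => min (nu c j s β) cap) t ≤
        2 * ∑ β ∈ range (B + 1), gain M c j t β + err j t)
    (hatm : ∀ j, j + 1 < n → ∀ t < M ^ (n - (j + 1)),
      ∑ β ∈ range B, (if cap / 2 ≤ ch M (fun s => nu c j s β) t
        then ch M (fun s => nu c j s β) t else 0) ≤ atm j t) :
    n * (c n 0 0 - av M n 0 (fun t => c 0 t B)) ≤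
      4 * Gam M n c (B + 1) + ∑ j ∈ range n, av M n (j + 1) (err j)
        + 2 * ∑ j ∈ range (n - 1), av M n (j + 1) (atm j) + 1 := by
  set m0 := c n 0 0 - av M n 0 (fun t => c 0 t B) with hm0
  -- level sums
  have hmass : ∀ j ∈ range n, m0 ≤ av M n j (fun t => ∑ β ∈ range B, nu c j t β) :=
    fun j hj => mass hgain (Finset.mem_range.1 hj).le B
  have hsum : n * m0 ≤ ∑ j ∈ range n, av M n j (fun t => ∑ β ∈ range B, nu c j t β) := by
    have := Finset.sum_le_sum hmass
    rwa [Finset.sum_const, Finset.card_range, nsmul_eq_mul] at this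
  -- split
  have hmin : ∀ j ∈ range n, av M n j (fun t => ∑ β ∈ range B, min (nu c j t β) cap) ≤
      2 * av M n (j + 1) (fun t => ∑ β ∈ range (B + 1), gain M c j t β)
        + av M n (j + 1) (err j) := by
    intro j hj
    have hjn := Finset.mem_range.1 hj
    rw [av_succ hjn, ← av_mul, ← av_add]
    refine av_mono fun t ht => ?_
    have h := hstar j hjn t ht
    refine le_trans (le_of_eq ?_) h
    unfold ch
    rw [← Finset.sum_div, Finset.sum_comm]
  have hbig : ∀ j, j + 1 < n → av M n (j + 1) (fun t => ∑ β ∈ range B, nu c (j + 1) t β) ≤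
      av M n (j + 1) (fun t => ∑ β ∈ range B, min (nu c (j + 1) t β) cap)
        + (2 * av M n (j + 1) (fun t => ∑ β ∈ range (B + 1), gain M c j t β)
          + 2 * av M n (j + 1) (atm j)) := by
    intro j hj
    rw [← av_mul, ← av_mul, ← av_add, ← av_add]
    refine av_mono fun t ht => ?_
    have hjn : j < n := by omega
    have e1 : ∀ β ∈ range B, nu c (j + 1) t β ≤ min (nu c (j + 1) t β) cap +
        (2 * gain M c j t (β + 1) + 2 * (if cap / 2 ≤ ch M (fun s => nu c j s β) t
          then ch M (fun s => nu c j s β) t else 0)) := by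
      intro β _
      refine atom_split (nu_parent M c j t β) (hgain j hjn t ht β) (hgain j hjn t ht (β + 1)) ?_
        hcap
      unfold ch
      exact div_nonneg (Finset.sum_nonneg fun i hi => hnu j hjn _
        (child_lt hjn ht (Finset.mem_range.1 hi)) β) (by positivity)
    refine (Finset.sum_le_sum e1).trans ?_
    rw [Finset.sum_add_distrib, Finset.sum_add_distrib, ← Finset.mul_sum, ← Finset.mul_sum]
    have e2 : ∑ β ∈ range B, gain M c j t (β + 1) ≤ ∑ β ∈ range (B + 1), gain M c j t β := by
      rw [Finset.sum_range_succ']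
      have := hgain j hjn t ht 0
      linarith
    have e3 := hatm j hj t ht
    linarith
  have hlvl : ∀ j ∈ range n, av M n j (fun t => ∑ β ∈ range B, nu c j t β) ≤
      av M n j (fun t => ∑ β ∈ range B, min (nu c j t β) cap) +
        (if j = 0 then 1 else
          (2 * av M n j (fun t => ∑ β ∈ range (B + 1), gain M c (j - 1) t β)
          + 2 * av M n j (atm (j - 1)))) := by
    intro j hj
    rcases j with _ | j
    · rw [if_pos rfl]
      have e1 : av M n 0 (fun t => ∑ β ∈ range B, nu c 0 t β) ≤ 1 := by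
        rw [← av_const (M := M) (n := n) (j := 0) hM 1]
        refine av_mono fun t ht => ?_
        rw [sum_nu]
        exact hleaf t (by simpa using ht)
      have e2 : 0 ≤ av M n 0 (fun t => ∑ β ∈ range B, min (nu c 0 t β) cap) :=
        av_nonneg fun t ht => Finset.sum_nonneg fun β _ =>
          le_min (hnu 0 (Finset.mem_range.1 hj) t ht β) hcap
      linarith
    · rw [if_neg (by omega), Nat.add_sub_cancel]
      exact hbig j (Finset.mem_range.1 hj)
  have htot := hsum.trans ((Finset.sum_le_sum hlvl).trans (le_of_eq Finset.sum_add_distrib))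
  have hA := Finset.sum_le_sum hmin
  rw [Finset.sum_add_distrib, ← Finset.mul_sum] at hA
  have hGam : ∑ j ∈ range n, av M n (j + 1) (fun t => ∑ β ∈ range (B + 1), gain M c j t β) =
      Gam M n c (B + 1) := rfl
  rw [hGam] at hA
  -- the atoms
  have hB : ∑ j ∈ range n, (if j = 0 then (1 : ℝ) else
      (2 * av M n j (fun t => ∑ β ∈ range (B + 1), gain M c (j - 1) t β)
        + 2 * av M n j (atm (j - 1)))) ≤
      1 + 2 * Gam M n c (B + 1) + 2 * ∑ j ∈ range (n - 1), av M n (j + 1) (atm j) := by
    rcases n with _ | n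
    · simp [Gam]
    · rw [Finset.sum_range_succ', if_pos rfl]
      have e1 : ∀ j ∈ range n, (if j + 1 = 0 then (1 : ℝ) else
          (2 * av M (n + 1) (j + 1) (fun t => ∑ β ∈ range (B + 1), gain M c (j + 1 - 1) t β)
            + 2 * av M (n + 1) (j + 1) (atm (j + 1 - 1)))) =
          2 * av M (n + 1) (j + 1) (fun t => ∑ β ∈ range (B + 1), gain M c j t β)
            + 2 * av M (n + 1) (j + 1) (atm j) := by
        intro j _
        rw [if_neg (by omega), Nat.add_sub_cancel]
      rw [Finset.sum_congr rfl e1, Finset.sum_add_distrib, ← Finset.mul_sum, ← Finset.mul_sum,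
        Nat.add_sub_cancel]
      have e2 : ∑ j ∈ range n, av M (n + 1) (j + 1)
          (fun t => ∑ β ∈ range (B + 1), gain M c j t β) ≤ Gam M (n + 1) c (B + 1) := by
        unfold Gam
        refine Finset.sum_le_sum_of_subset_of_nonneg (Finset.range_mono (by omega)) ?_
        intro j hj _
        exact av_nonneg fun t ht => Finset.sum_nonneg fun β _ =>
          hgain j (Finset.mem_range.1 hj) t ht β
      linarith
  linarith

end Vale.Agent.P315.Q976
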